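import Mathlib.Computability.TuringMachine.Computable
import Mathlib.Data.Nat.Bits
import Mathlib.Data.Fintype.Pi
import Mathlib.Data.Real.Basic
import Mathlib.Combinatorics.Matroid.Rank.ENat

namespace Vale.Agent.P317

/-- Self-delimiting binary codes of bits, pairs, lists, naturals (in binary) and positive
rationals (numerator and denominator). -/
def encBool (b : Bool) : List Bool := if b then [true, false, false] else [false]

def encPair {α β : Type} (f : α → List Bool) (g : β → List Bool) (p : α × β) : List Bool :=
  true :: (f p.1 ++ g p.2)

def encList {α : Type} (f : α → List Bool) (l : List α) : List Bool :=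
  l.flatMap (fun a => true :: f a) ++ [false]

def encNat (n : ℕ) : List Bool := encList encBool n.bits

def encRat (r : ℚ) : List Bool := encPair encNat encNat (r.num.toNat, r.den)

/-- What the algorithm sees: the input `(n, ε, δ)`, its coins, and the oracle answers so far. -/
abbrev View : Type := (ℕ × ℚ × ℚ) × List Bool × List Bool

def encView : View → List Bool :=
  encPair (encPair encNat (encPair encRat encRat)) (encPair (encList encBool) (encList encBool))

open Classical in
/-- The independence oracles: the query names one of the two matroids and a subset (bit vector). -/
noncomputable def oracle {n : ℕ} (M₁ M₂ : Matroid (Fin n)) (z : Bool × List Bool) : Bool :=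
  decide ((if z.1 then M₁ else M₂).Indep {e | z.2.getD e false = true})

/-- The answers to the first `k` adaptive queries; each query is computed from the answers so far. -/
def answers (O : Bool × List Bool → Bool) (q : List Bool → Bool × List Bool) : ℕ → List Bool
  | 0 => []
  | k + 1 => answers O q k ++ [O (q (answers O q k))]

open Classical in
/-- The probability of an event about `ρ` independent fair coin flips. -/
noncomputable def coinProb (ρ : ℕ) (E : List Bool → Prop) : ℝ :=
  ((Finset.univ.filter fun w : Fin ρ → Bool => E (List.ofFn w)).card : ℝ) / 2 ^ ρ

end Vale.Agent.P317
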