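import Vale.Agent.P317.Site
import Vale.Agent.P317.Defs

/-! Pairs of bases as bases of one rank function on `n + n` elements. -/

namespace Vale.Agent.P317

open Finset

variable {n : ℕ}

/-- Rank as a natural number. -/
noncomputable def rk (M : Matroid (Fin n)) (S : Finset (Fin n)) : ℕ := (M.eRk S).toNat

theorem rk_cast (M : Matroid (Fin n)) (S : Finset (Fin n)) : (rk M S : ℕ∞) = M.eRk S :=
  ENat.coe_toNat ((M.eRk_le_encard S).trans_lt S.finite_toSet.encard_lt_top).ne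

theorem rk_le (M : Matroid (Fin n)) (S : Finset (Fin n)) : rk M S ≤ S.card := by
  have := M.eRk_le_encard S
  rwa [← rk_cast, Set.encard_coe_eq_coe_finsetCard, Nat.cast_le] at this

theorem rk_mono (M : Matroid (Fin n)) {S T : Finset (Fin n)} (h : S ⊆ T) : rk M S ≤ rk M T := by
  have := M.eRk_mono (coe_subset.2 h)
  rwa [← rk_cast, ← rk_cast, Nat.cast_le] at this

theorem rk_sub (M : Matroid (Fin n)) (S T : Finset (Fin n)) :
    rk M (S ∩ T) + rk M (S ∪ T) ≤ rk M S + rk M T := by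
  have := M.eRk_submod S T
  rw [← coe_inter, ← coe_union, ← rk_cast, ← rk_cast, ← rk_cast, ← rk_cast] at this
  exact_mod_cast this

theorem rk_ins (M : Matroid (Fin n)) (S : Finset (Fin n)) (e : Fin n) :
    rk M (insert e S) ≤ rk M S + 1 := by
  have := M.eRk_insert_le_add_one e S
  rw [← coe_insert, ← rk_cast, ← rk_cast] at this
  exact_mod_cast this

theorem indep_iff (M : Matroid (Fin n)) (S : Finset (Fin n)) : M.Indep S ↔ rk M S = S.card := by
  rw [Matroid.indep_iff_eRk_eq_encard_of_finite S.finite_toSet, ← rk_cast,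
    Set.encard_coe_eq_coe_finsetCard, Nat.cast_inj]

theorem base_iff (M : Matroid (Fin n)) (S : Finset (Fin n)) :
    M.IsBase S ↔ rk M S = S.card ∧ S.card = rk M univ := by
  have e : (rk M univ : ℕ∞) = M.eRank := by rw [rk_cast, coe_univ, M.eRk_univ_eq]
  refine ⟨fun h => ⟨(indep_iff M S).1 h.indep, ?_⟩, fun h => ((indep_iff M S).2 h.1).isBase_of_eRk_ge
    S.finite_toSet (by rw [← e, ← rk_cast, h.1, h.2])⟩
  have := h.encard_eq_eRank
  rwa [← e, Set.encard_coe_eq_coe_finsetCard, Nat.cast_inj] at this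

/-- The two copies of an element. -/
def xx (e : Fin n) : Fin (n + n) := Fin.castAdd n e
def yy (e : Fin n) : Fin (n + n) := Fin.natAdd n e

theorem xx_ne_yy (i j : Fin n) : xx i ≠ yy j := fun h => by
  have := congrArg Fin.val h
  simp [xx, yy] at this
  omega

theorem sum_xy {β : Type} [AddCommMonoid β] (f : Fin (n + n) → β) :
    ∑ a, f a = ∑ e, f (xx e) + ∑ e, f (yy e) := Fin.sum_univ_add f

theorem cases_xy {P : Fin (n + n) → Prop} (h1 : ∀ e, P (xx e)) (h2 : ∀ e, P (yy e)) (a : Fin (n + n)) :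
    P a := Fin.addCases h1 h2 a

theorem xx_inj : Function.Injective (xx (n := n)) := Fin.castAdd_injective _ _
theorem yy_inj : Function.Injective (yy (n := n)) := Fin.natAdd_injective _ _

/-- The first set. -/
def lf (ω : Finset (Fin (n + n))) : Finset (Fin n) := univ.filter fun e => xx e ∈ ω
/-- The second set. -/
def rt (ω : Finset (Fin (n + n))) : Finset (Fin n) := univ.filter fun e => yy e ∉ ω

theorem card_lr (ω : Finset (Fin (n + n))) : ω.card + (rt ω).card = (lf ω).card + n := by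
  have h1 : ω.card = ∑ a, if a ∈ ω then 1 else 0 := by simp
  have h2 := card_filter_add_card_filter_not (s := (univ : Finset (Fin n))) fun e => yy e ∈ ω
  rw [h1, sum_xy, ← card_filter, ← card_filter, lf, rt]
  rw [card_univ, Fintype.card_fin] at h2
  omega

theorem card_rt (ω : Finset (Fin (n + n))) : (rt ω).card ≤ n := by
  simpa using card_le_univ (rt ω)

variable (M₁ M₂ : Matroid (Fin n))

/-- The rank function of the sum of the first matroid and the dual of the second (shifted). -/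
noncomputable def rho (ω : Finset (Fin (n + n))) : ℕ :=
  rk M₁ (lf ω) + (n - (rt ω).card) + rk M₂ (rt ω)

theorem lf_x (e : Fin n) (ω : Finset (Fin (n + n))) : lf (insert (xx e) ω) = insert e (lf ω) := by
  ext; simp [lf, xx_inj.eq_iff]
theorem lf_y (e : Fin n) (ω : Finset (Fin (n + n))) : lf (insert (yy e) ω) = lf ω := by
  ext; simp [lf, xx_ne_yy]
theorem rt_x (e : Fin n) (ω : Finset (Fin (n + n))) : rt (insert (xx e) ω) = rt ω := by
  ext; simp [rt, (xx_ne_yy _ _).symm]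
theorem rt_y (e : Fin n) (ω : Finset (Fin (n + n))) : rt (insert (yy e) ω) = (rt ω).erase e := by
  ext; simp [rt, yy_inj.eq_iff]

theorem rk_rho : Rk (rho M₁ M₂) := by
  have h : ∀ S a, rho M₁ M₂ S ≤ rho M₁ M₂ (insert a S) ∧ rho M₁ M₂ (insert a S) ≤ rho M₁ M₂ S + 1 := by
    intro S a
    refine cases_xy (P := fun a => _ ≤ rho M₁ M₂ (insert a S) ∧ rho M₁ M₂ (insert a S) ≤ _)
      (fun e => ?_) (fun e => ?_) a
    · have := rk_mono M₁ (subset_insert e (lf S))
      have := rk_ins M₁ (lf S) e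
      simp only [rho, lf_x, rt_x]
      omega
    · simp only [rho, lf_y, rt_y]
      by_cases c : e ∈ rt S
      · have := rk_mono M₂ (erase_subset e (rt S))
        have h2 := rk_ins M₂ ((rt S).erase e) e
        have := card_rt S
        have := card_pos.2 ⟨e, c⟩
        rw [insert_erase c] at h2
        rw [card_erase_of_mem c]
        omega
      · rw [erase_eq_of_notMem c]
        omega
  refine ⟨fun S a => (h S a).1, fun S a => (h S a).2, fun S a b => ?_⟩
  by_cases e : a = b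
  · have := (h S a).1
    rw [e, insert_idem] at *
    omega
  have g : ∀ A B, rho M₁ M₂ (A ∪ B) + rho M₁ M₂ (A ∩ B) ≤ rho M₁ M₂ A + rho M₁ M₂ B := fun A B => by
    have a1 := rk_sub M₁ (lf A) (lf B)
    have a2 := rk_sub M₂ (rt A) (rt B)
    have a3 := card_union_add_card_inter (rt A) (rt B)
    have a4 := card_rt (A ∩ B)
    have a5 := card_rt (A ∪ B)
    have a6 := card_rt A
    have a7 := card_rt B
    have e1 : lf (A ∪ B) = lf A ∪ lf B := by ext; simp [lf]
    have e2 : lf (A ∩ B) = lf A ∩ lf B := by ext; simp [lf]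
    have e3 : rt (A ∪ B) = rt A ∩ rt B := by ext; simp [rt]
    have e4 : rt (A ∩ B) = rt A ∪ rt B := by ext; simp [rt]; tauto
    simp only [rho, e1, e2, e3, e4] at *
    omega
  have := g (insert a S) (insert b S)
  rwa [show insert a S ∪ insert b S = insert a (insert b S) by ext; simp; tauto,
    show insert a S ∩ insert b S = S by ext c; simp; grind] at this

/-- Pairs of bases. -/
def Bas (ω : Finset (Fin (n + n))) : Prop := M₁.IsBase (lf ω) ∧ M₂.IsBase (rt ω)

/-- The energy. -/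
def eng (ci co : Fin (n + n) → ℕ) (L : ℕ) (ω : Finset (Fin (n + n))) : ℕ :=
  ∑ a, (if a ∈ ω then ci a else co a) + ∑ e, if xx e ∈ ω ∧ yy e ∈ ω then 2 * L else 0

open Classical in
/-- The Gibbs weight. -/
noncomputable def gw (E : Finset (Fin (n + n)) → ℕ) (ω : Finset (Fin (n + n))) : ℝ :=
  if Bas M₁ M₂ ω then (1 / 2) ^ E ω else 0

theorem gw_nonneg (E : Finset (Fin (n + n)) → ℕ) (ω : Finset (Fin (n + n))) : 0 ≤ gw M₁ M₂ E ω := by
  unfold gw
  split_ifs <;> positivity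

variable {M₁ M₂} (hr : rk M₁ univ = rk M₂ univ)
include hr

theorem rho_le (ω : Finset (Fin (n + n))) (h : ω.card = n) : rho M₁ M₂ ω ≤ n + rk M₂ univ := by
  have := rk_le M₁ (lf ω)
  have := rk_mono M₂ (subset_univ (rt ω))
  have := card_lr ω
  have := card_rt ω
  unfold rho
  omega

theorem bas_iff (ω : Finset (Fin (n + n))) :
    Bas M₁ M₂ ω ↔ ω.card = n ∧ rho M₁ M₂ ω = n + rk M₂ univ := by
  have := rk_le M₁ (lf ω)
  have := rk_le M₂ (rt ω)
  have := rk_mono M₁ (subset_univ (lf ω))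
  have := rk_mono M₂ (subset_univ (rt ω))
  have := card_lr ω
  have := card_rt ω
  rw [Bas, base_iff, base_iff, rho]
  omega

theorem gw_mu (ci co : Fin (n + n) → ℕ) (L : ℕ) : gw M₁ M₂ (eng ci co L) =
    mu (gB n (n + rk M₂ univ) (rho M₁ M₂)) xx yy ((1 / 4) ^ L)
      (fun a => (1 / 2) ^ ci a / (1 / 2) ^ co a) (∏ a, (1 / 2) ^ co a) univ := by
  funext ω
  simp only [gw, mu, gB, bas_iff hr]
  split_ifs
  · rw [eng, pow_add, one_mul, ← prod_pow_eq_pow_sum, ← prod_pow_eq_pow_sum]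
    congr 1
    · rw [← filter_mem_eq_inter.trans (univ_inter ω), prod_filter, ← prod_mul_distrib]
      refine prod_congr rfl fun a _ => ?_
      by_cases c : a ∈ ω <;> simp [c]
    · refine prod_congr rfl fun e _ => ?_
      unfold pw
      split_ifs
      · rw [pow_mul]; norm_num
      · simp
  · simp

theorem good_gw {ω0 : Finset (Fin (n + n))} (h0 : Bas M₁ M₂ ω0) (L : ℕ) : ∃ q : ℝ, 0 < q ∧
    1 / q ≤ 4 * 4 ^ L ∧ ∀ (K : Finset (Fin n)) (w : Fin (n + n) → ℝ) (s : ℝ), (∀ a, 0 < w a) → 0 < s →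
      Good {a | ∃ i ∈ K, a = xx i ∨ a = yy i} (K.card / q)
        (mu (gB n (n + rk M₂ univ) (rho M₁ M₂)) xx yy ((1 / 4) ^ L) w s K) := by
  have e0 : (0 : ℝ) < (1 / 4) ^ L := by positivity
  have e1 : (1 / 4 : ℝ) ^ L ≤ 1 := pow_le_one₀ (by norm_num) (by norm_num)
  have e2 := Real.sq_sqrt (sub_nonneg.2 e1)
  have e3 := Real.sqrt_nonneg (1 - (1 / 4 : ℝ) ^ L)
  have e4 : (4 : ℝ) ^ L * (1 / 4) ^ L = 1 := by rw [← mul_pow]; norm_num
  generalize √(1 - (1 / 4 : ℝ) ^ L) = s at *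
  have e5 : s < 1 := by nlinarith
  have q0 : 0 < (1 - s) / 2 := by linarith
  have h1 := (bas_iff hr ω0).1 h0
  refine ⟨(1 - s) / 2, q0, ?_, fun K => ?_⟩
  · rw [div_le_iff₀ q0]
    have : (0 : ℝ) < 4 ^ L := by positivity
    nlinarith [mul_le_mul_of_nonneg_left (show (1 / 4 : ℝ) ^ L ≤ 2 * (1 - s) by nlinarith) this.le]
  · rw [show (1 / 4 : ℝ) ^ L = 4 * ((1 - s) / 2) * (1 - (1 - s) / 2) by linarith]
    exact good_mu (fun ω => by unfold gB; split_ifs <;> norm_num) ⟨ω0, by simp [gB, h1]⟩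
      (fun w hw => gB_poin (rk_rho M₁ M₂) (rho_le hr) hw ⟨ω0, h1⟩) xx_inj yy_inj xx_ne_yy q0
      (by linarith) K

theorem gw_poin {ω0 : Finset (Fin (n + n))} (h0 : Bas M₁ M₂ ω0) (ci co : Fin (n + n) → ℕ) (L : ℕ) :
    Poin (gw M₁ M₂ (eng ci co L)) ((1 + 8 * n * 4 ^ L) ^ 2) := by
  obtain ⟨q, q0, q1, h⟩ := good_gw hr h0 L
  intro f c e
  rw [gw_mu hr] at e
  refine le_of_eq_of_le (by rw [gw_mu hr]) (((h univ _ _ (fun a => by positivity)
    (by positivity)).poin f c e).trans ?_)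
  rw [← gw_mu hr]
  refine mul_le_mul_of_nonneg_right (pow_le_pow_left₀ (by positivity) ?_ _)
    (En_nonneg (gw_nonneg _ _ _) _ _)
  have := mul_le_mul_of_nonneg_left q1 (Nat.cast_nonneg (α := ℝ) n)
  rw [card_univ, Fintype.card_fin, div_eq_mul_one_div]
  linarith

theorem gw_pair {ω0 : Finset (Fin (n + n))} (h0 : Bas M₁ M₂ ω0) (ci co : Fin (n + n) → ℕ) (L : ℕ)
    (e : Fin n) :
    (∑ ω, gw M₁ M₂ (eng ci co L) ω * if xx e ∈ ω ∧ yy e ∈ ω then 1 else 0) *
      (∑ ω, gw M₁ M₂ (eng ci co L) ω * if xx e ∉ ω ∧ yy e ∉ ω then 1 else 0) ≤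
      2 * (1 / 4) ^ L * (∑ ω, gw M₁ M₂ (eng ci co L) ω) ^ 2 := by
  obtain ⟨q, q0, q1, h⟩ := good_gw hr h0 L
  have e0 : (0 : ℝ) < (1 / 4) ^ L := by positivity
  have g := h (univ.erase e) (fun a => (1 / 2) ^ ci a / (1 / 2) ^ co a) (∏ a, (1 / 2) ^ co a)
    (fun a => by positivity) (by positivity)
  have := (h (univ.erase e) (fun a => ((1 / 2) ^ ci a / (1 / 2) ^ co a *
    if a = xx e then (1 / 4) ^ L else 1) * if a = yy e then (1 / 4) ^ L else 1) (∏ a, (1 / 2) ^ co a)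
    (fun a => by positivity) (by positivity)).pair (x := xx e) (y := yy e)
    (by simp [xx_inj.eq_iff, xx_ne_yy, eq_comm]) (by simp [yy_inj.eq_iff, xx_ne_yy, eq_comm])
    (xx_ne_yy _ _)
  simp only [mu_fd] at this
  have p : ∀ ω, gw M₁ M₂ (eng ci co L) ω = mu (gB n (n + rk M₂ univ) (rho M₁ M₂)) xx yy ((1 / 4) ^ L)
      (fun a => (1 / 2) ^ ci a / (1 / 2) ^ co a) (∏ a, (1 / 2) ^ co a) (univ.erase e) ω *
        pw ((1 / 4) ^ L) (xx e) (yy e) ω := fun ω => by
    rw [gw_mu hr, mu, mu, ← prod_erase_mul _ _ (mem_univ e), ← mul_assoc]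
  simp only [p]
  have nn := g.nn
  generalize mu (gB n (n + rk M₂ univ) (rho M₁ M₂)) xx yy ((1 / 4) ^ L)
    (fun a => (1 / 2) ^ ci a / (1 / 2) ^ co a) (∏ a, (1 / 2) ^ co a) (univ.erase e) = μ at *
  generalize (1 / 4 : ℝ) ^ L = t at *
  generalize xx e = x at *
  generalize yy e = y at *
  have z : ∀ ω, 0 ≤ μ ω * pw t x y ω := fun ω =>
    mul_nonneg (nn ω) (by unfold pw; split_ifs <;> positivity)
  have a : ∀ G : Finset (Fin (n + n)) → ℝ, (∀ ω, G ω ≤ t * (μ ω * pw t x y ω)) →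
      ∑ ω, G ω ≤ t * ∑ ω, μ ω * pw t x y ω := fun G hG => by
    rw [mul_sum]; exact sum_le_sum fun ω _ => hG ω
  have a1 := a (fun ω => μ ω * fd x t ω * fd y t ω * if x ∈ ω then 1 else 0) fun ω => by
    have := mul_nonneg e0.le (z ω)
    by_cases c : x ∈ ω <;> by_cases d : y ∈ ω <;> simp only [c, d, pw, fd, if_true, if_false, and_self,
      and_false, false_and] at this ⊢ <;> linarith
  have a2 := a (fun ω => μ ω * fd x t ω * fd y t ω * if y ∈ ω then 1 else 0) fun ω => by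
    have := mul_nonneg e0.le (z ω)
    by_cases c : x ∈ ω <;> by_cases d : y ∈ ω <;> simp only [c, d, pw, fd, if_true, if_false, and_self,
      and_false, false_and] at this ⊢ <;> linarith
  have a3 : ∑ ω, μ ω * fd x t ω * fd y t ω * (if x ∈ ω ∧ y ∈ ω then 1 else 0) =
      t * ∑ ω, μ ω * pw t x y ω * if x ∈ ω ∧ y ∈ ω then 1 else 0 := by
    rw [mul_sum]
    refine sum_congr rfl fun ω _ => ?_
    by_cases c : x ∈ ω <;> by_cases d : y ∈ ω <;> simp [c, d, pw, fd]
    ring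
  have f0 : ∀ ω, 0 ≤ μ ω * fd x t ω * fd y t ω := fun ω => by
    have := nn ω
    unfold fd
    split_ifs <;> positivity
  have a4 : ∑ ω, μ ω * pw t x y ω * (if x ∉ ω ∧ y ∉ ω then 1 else 0) ≤
      ∑ ω, μ ω * fd x t ω * fd y t ω := sum_le_sum fun ω _ => by
    have := f0 ω
    by_cases c : x ∈ ω <;> by_cases d : y ∈ ω <;> simp_all [pw, fd]
  have b0 : ∀ (p : Finset (Fin (n + n)) → Prop) [DecidablePred p] (G : Finset (Fin (n + n)) → ℝ),
      (∀ ω, 0 ≤ G ω) → 0 ≤ ∑ ω, G ω * if p ω then 1 else 0 := fun p _ G hG =>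
    sum_nonneg fun ω _ => mul_nonneg (hG ω) (by split_ifs <;> norm_num)
  have b1 := mul_le_mul a1 a2 (b0 _ _ f0) (mul_nonneg e0.le (sum_nonneg fun ω _ => z ω))
  have b2 := mul_le_mul_of_nonneg_left a4 (mul_nonneg e0.le (b0 (fun ω => x ∈ ω ∧ y ∈ ω) _ z))
  rw [a3] at this
  refine le_of_mul_le_mul_left ?_ e0
  linarith

end Vale.Agent.P317
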