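import Vale.Agent.P317.Slc

/-! Weights given by rank functions satisfy the Poincare inequality. -/

namespace Vale.Agent.P317

open Finset

variable {α : Type} [Fintype α] [DecidableEq α]

/-- Unit increments and local submodularity. -/
structure Rk (ρ : Finset α → ℕ) : Prop where
  mono : ∀ S a, ρ S ≤ ρ (insert a S)
  inc : ∀ S a, ρ (insert a S) ≤ ρ S + 1
  sub : ∀ S a b, ρ (insert a (insert b S)) + ρ S ≤ ρ (insert a S) + ρ (insert b S)

omit [Fintype α] in
theorem Rk.con {ρ : Finset α → ℕ} (h : Rk ρ) (c : α) : Rk fun S => ρ (insert c S) where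
  mono S a := by rw [insert_comm]; exact h.mono _ _
  inc S a := by rw [insert_comm]; exact h.inc _ _
  sub S a b := by
    rw [insert_comm c a, insert_comm c a, insert_comm c b]
    exact h.sub _ _ _

/-- The deformed basis weights. -/
def wt (E : Finset α) (r : ℕ) (ρ : Finset α → ℕ) (w : α → ℝ) (y s : ℝ) (ω : Finset α) : ℝ :=
  if ω ⊆ E ∧ ω.card = r then s * y ^ ρ ω * ∏ a ∈ ω, w a else 0

variable {E : Finset α} {r : ℕ} {ρ : Finset α → ℕ} {w : α → ℝ} {y s : ℝ}

omit [Fintype α] in
theorem wt_pos (hw : ∀ a, 0 < w a) (hy : 0 < y) (hs : 0 < s) : Pos E r (wt E r ρ w y s) where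
  pos ω h1 h2 := by
    rw [wt, if_pos ⟨h1, h2⟩]
    exact mul_pos (by positivity) (prod_pos fun a _ => hw a)
  zero ω h := if_neg h

omit [Fintype α] in
theorem lk_wt {a : α} (ha : a ∈ E) : lk (wt E (r + 1) ρ w y s) a =
    wt (E.erase a) r (fun S => ρ (insert a S)) w y (s * w a) := by
  funext S
  unfold lk wt
  by_cases c : a ∈ S
  · simp [c, subset_erase]
  · simp only [c, if_false, insert_subset_iff, ha, true_and, card_insert_of_notMem c, subset_erase,
      not_false_eq_true, and_true, add_left_inj, prod_insert c]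
    split_ifs
    · ring
    · rfl

omit [Fintype α] [DecidableEq α] in
theorem per_psd (E : Finset α) (R : α → α → Prop) [DecidableRel R] (hs : ∀ a b, R a b → R b a)
    (ht : ∀ a b c, R a b → R b c → R a c) (u : α → ℝ) :
    0 ≤ ∑ a ∈ E, ∑ b ∈ E, (if R a b then 1 else 0) * (u a * u b) := by
  have key : ∀ a ∈ E, ∀ b ∈ E, (if R a b then (1 : ℝ) else 0) * (u a * u b) = ∑ c ∈ E,
      ((if R a c then u a else 0) * if R b c then u b else 0) / (E.filter (R c)).card := by
    intro a _ b hb
    split_ifs with h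
    · rw [sum_congr rfl (g := fun c => if R a c then u a * u b / (E.filter (R a)).card else 0)
        fun c _ => by
          by_cases e : R a c
          · rw [if_pos e, if_pos e, if_pos (ht _ _ _ (hs _ _ h) e),
              filter_congr fun d _ => ⟨ht _ _ _ e, ht _ _ _ (hs _ _ e)⟩]
          · simp [e], ← sum_filter, sum_const, nsmul_eq_mul, one_mul, mul_div_cancel₀]
      exact_mod_cast (card_pos.2 ⟨b, mem_filter.2 ⟨hb, h⟩⟩).ne'
    · rw [zero_mul]
      refine (sum_eq_zero fun c _ => ?_).symm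
      by_cases e : R a c
      · rw [if_neg (c := R b c) fun e' => h (ht _ _ _ e (hs _ _ e'))]
        simp
      · simp [e]
  rw [sum_congr rfl fun a ha => sum_congr rfl (key a ha), sum_congr rfl fun a _ => sum_comm, sum_comm]
  refine sum_nonneg fun c _ => ?_
  simp only [← sum_div, ← mul_sum, ← sum_mul]
  exact div_nonneg (mul_self_nonneg _) (Nat.cast_nonneg _)

theorem lor_sign (H : α → α → ℝ) (hH : ∀ a b, H a b = H b a) (v t : α → ℝ) {κ : ℝ}
    (h : ∀ t : α → ℝ, ∑ a, ∑ b, H a b * (t a * t b) ≤ κ * (∑ a, v a * t a) ^ 2)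
    (h1 : 0 < ∑ a, ∑ b, H a b) (h2 : ∑ a, ∑ b, H a b * t b = 0) :
    ∑ a, ∑ b, H a b * (t a * t b) ≤ 0 := by
  have a1 := h fun _ => 1
  have a2 := h fun a => (∑ a, v a * t a) - (∑ a, v a) * t a
  have a3 : ∑ a, ∑ b, H a b * t a = 0 := by
    rw [sum_comm]
    simpa only [hH] using h2
  simp only [mul_one] at a1
  have a4 : ∑ a, v a ≠ 0 := fun e => by
    rw [e] at a1
    linarith
  have a6 : ∑ a, v a * ((∑ a, v a * t a) - (∑ a, v a) * t a) = 0 := by
    simp only [mul_sub, sum_sub_distrib, ← sum_mul, mul_left_comm (v _), ← mul_sum, sub_self]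
  rw [a6] at a2
  generalize ∑ a, v a = p at *
  have a5 : ∀ l : ℝ, ∑ a, ∑ b, H a b * ((l - p * t a) * (l - p * t b)) = l ^ 2 * ∑ a, ∑ b, H a b -
      l * p * (∑ a, ∑ b, H a b * t a) - l * p * (∑ a, ∑ b, H a b * t b) +
        p ^ 2 * ∑ a, ∑ b, H a b * (t a * t b) := fun l => by
    simp only [mul_sum, ← sum_sub_distrib, ← sum_add_distrib]
    exact sum_congr rfl fun _ _ => sum_congr rfl fun _ _ => by ring
  rw [a5, a3, h2] at a2
  have a7 := mul_nonneg (sq_nonneg (∑ a, v a * t a)) h1.le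
  exact le_of_mul_le_mul_left (by linarith) (pow_pos (abs_pos.2 a4) 2 |>.trans_eq (sq_abs p))

theorem wt_top (h : Rk ρ) (hw : ∀ a, 0 < w a) (hy : 1 ≤ y) (hs : 0 < s) : B1 (wt E 2 ρ w y s) := by
  have hp : Pos E 2 (wt E 2 ρ w y s) := wt_pos hw (by linarith) hs
  rcases lt_or_ge E.card 2 with c | c
  · intro t _
    simp [hp.eq_zero c]
  set ν := wt E 2 ρ w y s with hν
  set H : α → α → ℝ := fun a b => if a ∈ E ∧ b ∈ E ∧ a ≠ b then s * y ^ ρ {a, b} * (w a * w b) else 0
    with hH
  have e1 : ∀ a b, ∑ S, lk (lk ν a) b S = H a b := fun a b => by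
    rw [sum_eq_single ∅ (fun S _ e => ?_) (by simp)]
    · simp only [lk, hH, hν, wt, notMem_empty, if_false, insert_empty_eq, mem_singleton,
        insert_subset_iff, singleton_subset_iff]
      by_cases e : a = b
      · simp [e]
      · simp [e, and_assoc]
    · unfold lk
      split_ifs with c1 c2
      · rfl
      · rfl
      · refine hp.zero _ fun c3 => e (card_eq_zero.1 ?_)
        have := c3.2
        rw [card_insert_of_notMem c2, card_insert_of_notMem c1] at this
        omega
  have e2 : ∀ u t : α → ℝ, ∑ a, ∑ b, H a b * (u a * t b) =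
      ∑ ω, ν ω * ((∑ a ∈ ω, u a) * (∑ a ∈ ω, t a) - ∑ a ∈ ω, u a * t a) := fun u t => by
    rw [← Hf_sym]
    refine sum_congr rfl fun a _ => ?_
    rw [Hf, ← W_sum, mul_sum]
    exact sum_congr rfl fun b _ => by rw [e1]; ring
  have y0 : 0 < y := by linarith
  intro t ht
  have := lor_sign H (fun a b => by simp only [hH, pair_comm a b, mul_comm (w a), and_left_comm, ne_comm])
    (fun a => if a ∈ E then y ^ (ρ {a} - ρ ∅) * w a else 0) t (κ := s * y ^ ρ ∅) (fun t => ?_) ?_ ?_
  · rw [e2] at this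
    simpa only [sq] using this
  · set R : α → α → Prop := fun a b => ρ {a} = ρ ∅ + 1 ∧ ρ {b} = ρ ∅ + 1 ∧ ρ {a, b} = ρ ∅ + 1 with hR
    set u : α → ℝ := fun a => y ^ (ρ {a} - ρ ∅) * w a * t a with hu
    have p1 := per_psd E R (fun a b e => ⟨e.2.1, e.1, by rw [pair_comm]; exact e.2.2⟩)
      (fun a b c e e' => ⟨e.1, e'.2.1, by
        have i1 := h.sub {b} a c
        have i2 := h.mono {a, c} b
        have i3 := h.mono {c} a
        rw [pair_comm c b, e.2.2, e'.2.2, e.2.1] at i1
        rw [insert_comm b a] at i2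
        have := e'.2.1
        omega⟩) u
    have iy : 0 ≤ 1 - 1 / y := by rw [sub_nonneg, div_le_one y0]; exact hy
    have p2 : ∀ a ∈ E, ∀ b ∈ E, H a b * (t a * t b) ≤ s * y ^ ρ ∅ * (u a * u b) -
        s * y ^ ρ ∅ * (1 - 1 / y) * ((if R a b then 1 else 0) * (u a * u b)) := fun a ha b hb => by
      have i1 := h.sub ∅ a b
      have i2 := h.mono {b} a
      have i3 := h.mono {a} b
      have i4 := h.mono ∅ a
      have i5 := h.mono ∅ b
      have i6 := h.inc ∅ a
      have i7 := h.inc ∅ b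
      simp only [insert_empty_eq, pair_comm b a] at *
      by_cases e : a = b
      · subst e
        simp only [hH, ne_eq, not_true, and_false, if_false, zero_mul]
        have := mul_self_nonneg (u a)
        have : (0 : ℝ) < 1 / y := by positivity
        have : 0 < s * y ^ ρ ∅ := by positivity
        split_ifs
        · have : 0 ≤ s * y ^ ρ ∅ * (1 / y) * (u a * u a) := by positivity
          linarith
        · have : 0 ≤ s * y ^ ρ ∅ * (u a * u a) := by positivity
          linarith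
      · simp only [hH, ha, hb, e, ne_eq, not_false_eq_true, and_self, if_true, hu]
        split_ifs with c
        · rw [c.1, c.2.1, c.2.2]
          simp only [add_tsub_cancel_left, pow_succ, pow_zero]
          field_simp
          linarith
        · rw [show ρ {a, b} = ρ ∅ + (ρ {a} - ρ ∅) + (ρ {b} - ρ ∅) by simp only [hR] at c; omega]
          simp only [pow_add]
          linarith
    have p3 := sum_le_sum fun a ha => sum_le_sum (p2 a ha)
    simp only [sum_sub_distrib, ← mul_sum, ← sum_mul] at p3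
    rw [← sum_subset (subset_univ E) fun a _ ha => by simp [hH, ha],
      ← sum_subset (subset_univ E) fun a _ ha => by simp [ha],
      sum_congr rfl fun a _ => (sum_subset (subset_univ E) fun b _ hb => by simp [hH, hb]).symm,
      sum_congr rfl (g := u) (f := fun a => (if a ∈ E then y ^ (ρ {a} - ρ ∅) * w a else 0) * t a)
        fun a ha => by simp [hu, ha], sq]
    have : 0 ≤ s * y ^ ρ ∅ * (1 - 1 / y) *
      ∑ a ∈ E, ∑ b ∈ E, (if R a b then 1 else 0) * (u a * u b) := by positivity
    linarith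
  · have := e2 (fun _ => 1) fun _ => 1
    simp only [mul_one] at this
    rw [this, hp.congr (G' := fun _ => 2) fun ω _ e => by simp [e]; norm_num, ← sum_mul]
    exact mul_pos (hp.sum_pos c) two_pos
  · have := e2 (fun _ => 1) t
    simp only [one_mul] at this
    rw [this, hp.congr (G' := fun ω => ∑ a ∈ ω, t a) fun ω _ e => by simp [e]; ring, ht]

theorem wt_B1 (hw : ∀ a, 0 < w a) (hy : 1 ≤ y) (r : ℕ) : ∀ (E : Finset α) (ρ : Finset α → ℕ) (s : ℝ),
    Rk ρ → 0 < s → B1 (wt E (r + 2) ρ w y s) := by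
  induction r with
  | zero => exact fun _ _ _ h hs => wt_top h hw hy hs
  | succ r ih =>
    refine fun E ρ s h hs => trickle (wt_pos hw (by linarith) hs) fun a ha => ?_
    rw [lk_wt ha]
    exact ih _ _ _ (h.con a) (mul_pos hs (hw a))

theorem wt_poin (hw : ∀ a, 0 < w a) (hy : 1 ≤ y) (r : ℕ) : ∀ (E : Finset α) (ρ : Finset α → ℕ)
    (s : ℝ), Rk ρ → 0 < s → Poin (wt E r ρ w y s) 1 := by
  have y0 : 0 < y := by linarith
  induction r with
  | zero => exact fun _ _ _ _ hs => poin_zero (wt_pos hw y0 hs)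
  | succ r ih =>
    rcases r with _ | r
    · exact fun _ _ _ _ hs => poin_one (wt_pos hw y0 hs)
    refine fun E ρ s h hs => poin_step (wt_pos hw y0 hs) (wt_B1 hw hy r _ _ _ h hs) fun a ha => ?_
    rw [lk_wt ha]
    exact ih _ _ _ (h.con a) (mul_pos hs (hw a))

/-- Indicator of the `r`-sets of top rank. -/
def gB (r m : ℕ) (ρ : Finset α → ℕ) (ω : Finset α) : ℝ := if ω.card = r ∧ ρ ω = m then 1 else 0

open Filter Topology in
theorem gB_poin (h : Rk ρ) {m : ℕ} (hm : ∀ ω, ω.card = r → ρ ω ≤ m) (hw : ∀ a, 0 < w a)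
    (h0 : ∃ ω, ω.card = r ∧ ρ ω = m) : Poin (fun ω => gB r m ρ ω * ∏ a ∈ ω, w a) 1 := by
  intro f c hf
  set ν : ℝ → Finset α → ℝ := fun q ω =>
    (if ω.card = r then q ^ (m - ρ ω) else 0) * ∏ a ∈ ω, w a with hν
  have hc : ∀ ω, Continuous fun q => ν q ω := fun ω => by
    simp only [hν]
    split_ifs <;> fun_prop
  have e0 : (fun ω => gB r m ρ ω * ∏ a ∈ ω, w a) = ν 0 := funext fun ω => by
    simp only [hν, gB]
    congr 1
    by_cases e : ω.card = r
    · have := hm ω e
      by_cases e' : ρ ω = m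
      · simp [e, e']
      · simp [e, e', show m - ρ ω ≠ 0 by omega]
    · simp [e]
  obtain ⟨ω0, h1, h2⟩ := h0
  have key : ∀ q, 0 < q → q < 1 → (∑ ω, ν q ω) * ∑ ω, ν q ω * f ω ^ 2 - (∑ ω, ν q ω * f ω) ^ 2 ≤
      (∑ ω, ν q ω) * En (ν q) f c := fun q q0 q1 => by
    have e : ν q = wt univ r ρ w (1 / q) (q ^ m) := funext fun ω => by
      simp only [hν, wt, subset_univ, true_and]
      split_ifs with e
      · rw [pow_sub₀ _ q0.ne' (hm ω e), one_div, inv_pow]
      · simp
    have hZ : 0 < ∑ ω, ν q ω := by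
      rw [e]
      exact (wt_pos hw (by positivity) (by positivity)).sum_pos (h1 ▸ card_le_univ ω0)
    have := (e ▸ wt_poin hw (one_le_one_div q0 q1.le) r univ ρ _ h (pow_pos q0 m)).gen hZ f c
    have := mul_le_mul_of_nonneg_left this hZ.le
    rwa [one_mul, mul_sub, mul_div_cancel₀ _ hZ.ne'] at this
  have lim := le_of_tendsto_of_tendsto (b := 𝓝[>] (0 : ℝ))
    (Continuous.tendsto (f := fun q => (∑ ω, ν q ω) * ∑ ω, ν q ω * f ω ^ 2 - (∑ ω, ν q ω * f ω) ^ 2)
      (by fun_prop) 0 |>.mono_left nhdsWithin_le_nhds)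
    (Continuous.tendsto (f := fun q => (∑ ω, ν q ω) * En (ν q) f c)
      (by unfold En; fun_prop) 0 |>.mono_left nhdsWithin_le_nhds)
    (by filter_upwards [Ioo_mem_nhdsGT one_pos] with q hq using key q hq.1 hq.2)
  have e1 : ∀ ω, gB r m ρ ω * ∏ a ∈ ω, w a = ν 0 ω := congrFun e0
  simp only [e1] at hf ⊢
  rw [hf] at lim
  have hZ : 0 < ∑ ω, ν 0 ω := by
    refine lt_of_lt_of_le ?_ (single_le_sum (fun ω _ => ?_) (mem_univ ω0))
    · simp only [hν, h1, h2, if_true, Nat.sub_self, pow_zero, one_mul]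
      exact prod_pos fun a _ => hw a
    · simp only [hν]
      exact mul_nonneg (by split_ifs <;> positivity) (prod_pos fun a _ => hw a).le
  refine le_of_mul_le_mul_left ?_ hZ
  linarith

end Vale.Agent.P317
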