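import Vale.Agent.P317.Rank

/-! Penalising doubly occupied pairs: the Poincare inequality survives. -/

namespace Vale.Agent.P317

open Finset

variable {α ι : Type} [Fintype α] [DecidableEq α]

/-- Affine test functions. -/
def af (t : α → ℝ) (c : ℝ) (ω : Finset α) : ℝ := c + ∑ a ∈ ω, t a

/-- Diagonal form. -/
def dg (ν : Finset α → ℝ) (t : α → ℝ) : ℝ := ∑ ω, ν ω * ∑ a ∈ ω, t a ^ 2

/-- The inductive package; `L` is the set of frozen elements. -/
structure Good (L : Set α) (k : ℝ) (ν : Finset α → ℝ) : Prop where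
  nn : ∀ ω, 0 ≤ ν ω
  pos : 0 < ∑ ω, ν ω
  var : ∀ t c, (∀ a ∈ L, t a = 0) → ∑ ω, ν ω * af t c ω = 0 → ∑ ω, ν ω * af t c ω ^ 2 ≤ dg ν t
  dual : ∀ t c, (∀ a ∈ L, t a = 0) → ∑ ω, ν ω * af t c ω = 0 → ∀ f d,
    (∑ ω, ν ω * (af t c ω * f ω)) ^ 2 ≤ (dg ν t + k * (dg ν t - ∑ ω, ν ω * af t c ω ^ 2)) * En ν f d
  poin : Poin ν ((1 + 2 * k) ^ 2)

theorem good_base {ν : Finset α → ℝ} (nn : ∀ ω, 0 ≤ ν ω) (pos : 0 < ∑ ω, ν ω) (h : Poin ν 1) :
    Good ∅ 0 ν := by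
  have v : ∀ t c, ∑ ω, ν ω * af t c ω = 0 → ∑ ω, ν ω * af t c ω ^ 2 ≤ dg ν t := fun t c e => by
    refine (h _ (af t c) e).trans (le_of_eq ?_)
    rw [one_mul]
    refine sum_congr rfl fun ω _ => congrArg _ (sum_congr rfl fun a ha => ?_)
    rw [af, af, ← add_sum_erase _ _ ha]
    ring
  refine ⟨nn, pos, fun t c _ => v t c, fun t c _ e f d => ?_, by simpa using h⟩
  set m := (∑ ω, ν ω * f ω) / ∑ ω, ν ω with hm
  have e1 : ∑ ω, ν ω * f ω = m * ∑ ω, ν ω := by rw [hm]; field_simp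
  have a1 := h (fun ω => f ω - m) (fun S => d S - m) (by
    simp only [mul_sub, sum_sub_distrib, ← sum_mul]
    linarith)
  have a2 := cs nn (af t c) fun ω => f ω - m
  simp only [mul_sub, sum_sub_distrib, ← mul_assoc, ← sum_mul, e, zero_mul, sub_zero] at a2
  simp only [En, sub_sub_sub_cancel_right, one_mul] at a1
  simp only [zero_mul, add_zero, ← mul_assoc]
  exact a2.trans (mul_le_mul (v t c e) a1 (sum_nonneg fun ω _ => mul_nonneg (nn ω) (sq_nonneg _))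
    (sum_nonneg fun ω _ => mul_nonneg (nn ω) (by positivity)))

/-- Field at one element. -/
def fd (a : α) (k : ℝ) (ω : Finset α) : ℝ := if a ∈ ω then k else 1

/-- One half of the pair weight. -/
noncomputable def hf (q : ℝ) (x y : α) (ω : Finset α) : ℝ := fd x (2 * (1 - q)) ω * fd y (2 * q) ω / 2

/-- The pair weight. -/
def pw (e : ℝ) (x y : α) (ω : Finset α) : ℝ := if x ∈ ω ∧ y ∈ ω then e else 1

omit [Fintype α] in
theorem af_add (t : α → ℝ) (c k l : ℝ) (y : α) (ω : Finset α) :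
    af (fun a => t a + if a = y then k else 0) (c + l) ω = af t c ω + (l + if y ∈ ω then k else 0) := by
  simp only [af, sum_add_distrib, sum_ite_eq']
  ring

theorem dg_add (ν : Finset α → ℝ) {t : α → ℝ} (k : ℝ) {y : α} (h : t y = 0) :
    dg ν (fun a => t a + if a = y then k else 0) =
      dg ν t + k ^ 2 * ∑ ω, ν ω * if y ∈ ω then 1 else 0 := by
  have : ∀ a, (t a + if a = y then k else 0) ^ 2 = t a ^ 2 + if a = y then k ^ 2 else 0 := fun a => by
    split_ifs with e <;> simp [e, h]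
  simp only [dg, this, sum_add_distrib, sum_ite_eq', mul_add, mul_sum]
  congr 1
  exact sum_congr rfl fun ω _ => by split_ifs <;> simp [mul_comm]

theorem cs2 {a b p q u v : ℝ} (h1 : a ^ 2 ≤ p * u) (h2 : b ^ 2 ≤ q * v) (hp : 0 ≤ p) (hq : 0 ≤ q)
    (hu : 0 ≤ u) (hv : 0 ≤ v) : (a + b) ^ 2 ≤ (p + q) * (u + v) := by
  have : (a * b) ^ 2 ≤ ((p * v + q * u) / 2) ^ 2 := by
    rw [mul_pow]
    nlinarith [mul_le_mul h1 h2 (sq_nonneg _) (mul_nonneg hp hu), sq_nonneg (p * v - q * u)]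
  have := (abs_le_of_sq_le_sq' this (by positivity)).2
  nlinarith

/-- The auxiliary affine factor. -/
def ka (q : ℝ) (y : α) (ω : Finset α) : ℝ := q + if y ∈ ω then 1 - 2 * q else 0

/-- The indicator of an element. -/
def ind (y : α) (ω : Finset α) : ℝ := if y ∈ ω then 1 else 0

section step

variable {L : Set α} {k q : ℝ} {μ ν ν1 ν2 κ : Finset α → ℝ} {x y : α}

theorem step_gen (hx : x ∉ L) (hy : y ∉ L) (k0 : 0 ≤ k) (h1 : Good L k ν1) (h2 : Good L k ν2)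
    (s0 : ∀ ω, ν ω = ν1 ω + ν2 ω) (κ1 : ∀ ω, κ ω = ν1 ω * ka q y ω) (κ2 : ∀ ω, κ ω = ν2 ω * ka q x ω)
    (t : α → ℝ) (c c' η : ℝ) (ht : ∀ a ∈ insert x (insert y L), t a = 0)
    (e1 : ∑ ω, ν1 ω * af t c ω + η * ∑ ω, κ ω = 0) (e2 : ∑ ω, ν2 ω * af t c' ω - η * ∑ ω, κ ω = 0) :
    ∃ A : ℝ, 0 ≤ A ∧ A = dg ν t + η ^ 2 * ((1 - 2 * q) ^ 2 * (∑ ω, ν1 ω * ind y ω + ∑ ω, ν2 ω * ind x ω)) -
        (∑ ω, ν1 ω * (af t c ω + η * ka q y ω) ^ 2 + ∑ ω, ν2 ω * (af t c' ω - η * ka q x ω) ^ 2) ∧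
      ∀ f d, (∑ ω, ν1 ω * (af t c ω * f ω) + ∑ ω, ν2 ω * (af t c' ω * f ω)) ^ 2 ≤
        (dg ν t + η ^ 2 * ((1 - 2 * q) ^ 2 * (∑ ω, ν1 ω * ind y ω + ∑ ω, ν2 ω * ind x ω)) + k * A) *
          (En ν1 f d + En ν2 f d) := by
  have z : ∀ (b : α) (l : ℝ), b ∉ L → ∀ a ∈ L, (t a + if a = b then l else 0) = 0 :=
    fun b l hb a ha => by
      rw [ht a (by simp [ha]), if_neg (by rintro rfl; exact hb ha), add_zero]
  have r1 : ∀ ω, af (fun a => t a + if a = y then η * (1 - 2 * q) else 0) (c + η * q) ω =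
      af t c ω + η * ka q y ω := fun ω => by
    rw [af_add, ka]; split_ifs <;> ring
  have r2 : ∀ ω, af (fun a => t a + if a = x then -η * (1 - 2 * q) else 0) (c' + -η * q) ω =
      af t c' ω - η * ka q x ω := fun ω => by
    rw [af_add, ka]; split_ifs <;> ring
  have m1 : ∑ ω, ν1 ω * af (fun a => t a + if a = y then η * (1 - 2 * q) else 0) (c + η * q) ω = 0 := by
    refine Eq.trans ?_ e1
    rw [mul_sum, ← sum_add_distrib]
    exact sum_congr rfl fun ω _ => by rw [r1, κ1]; ring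
  have m2 : ∑ ω, ν2 ω * af (fun a => t a + if a = x then -η * (1 - 2 * q) else 0) (c' + -η * q) ω = 0 := by
    refine Eq.trans ?_ e2
    rw [mul_sum, ← sum_sub_distrib]
    exact sum_congr rfl fun ω _ => by rw [r2, κ2]; ring
  have v1 := h1.var _ _ (z y _ hy) m1
  have v2 := h2.var _ _ (z x _ hx) m2
  have d1 := h1.dual _ _ (z y _ hy) m1
  have d2 := h2.dual _ _ (z x _ hx) m2
  have dd : dg ν1 (fun a => t a + if a = y then η * (1 - 2 * q) else 0) +
      dg ν2 (fun a => t a + if a = x then -η * (1 - 2 * q) else 0) =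
      dg ν t + η ^ 2 * ((1 - 2 * q) ^ 2 * (∑ ω, ν1 ω * ind y ω + ∑ ω, ν2 ω * ind x ω)) := by
    rw [dg_add _ _ (ht y (by simp)), dg_add _ _ (ht x (by simp))]
    simp only [dg, s0, add_mul, sum_add_distrib, ind]
    ring
  have g0 : ∀ (ν : Finset α → ℝ) t, (∀ ω, 0 ≤ ν ω) → 0 ≤ dg ν t := fun ν t h =>
    sum_nonneg fun ω _ => mul_nonneg (h ω) (by positivity)
  refine ⟨_, add_nonneg (sub_nonneg.2 v1) (sub_nonneg.2 v2), by rw [← dd]; simp only [r1, r2]; ring,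
    fun f d => ?_⟩
  have := cs2 (d1 f d) (d2 f d) (add_nonneg (g0 _ _ h1.nn) (mul_nonneg k0 (sub_nonneg.2 v1)))
    (add_nonneg (g0 _ _ h2.nn) (mul_nonneg k0 (sub_nonneg.2 v2))) (En_nonneg h1.nn _ _)
    (En_nonneg h2.nn _ _)
  rw [← dd]
  refine le_of_eq_of_le (congrArg (· ^ 2) ?_) (this.trans (le_of_eq (by ring)))
  simp only [← sum_add_distrib, r1, r2]
  refine sum_congr rfl fun ω _ => ?_
  linear_combination (-η * f ω) * (κ1 ω).symm.trans (κ2 ω)

theorem step_poin (k0 : 0 ≤ k) (q0 : 0 < q) {Z1 Z2 F1 F2 D E1 E2 N A S1 S2 : ℝ} (z1 : 0 < Z1)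
    (z2 : 0 < Z2) (d0 : 0 < D) (d1 : q / 2 * Z2 ≤ D) (N2 : N ≤ 2 * D) (a6 : A ≤ (-1 / D) ^ 2 * N)
    (E0 : 0 ≤ E1 + E2) (a5 : (1 / Z1 * F1 + -1 / Z2 * F2) ^ 2 ≤ ((-1 / D) ^ 2 * N + k * A) * (E1 + E2))
    (e : F1 + F2 = 0) (v1 : S1 - F1 ^ 2 / Z1 ≤ (1 + 2 * k) ^ 2 * E1)
    (v2 : S2 - F2 ^ 2 / Z2 ≤ (1 + 2 * k) ^ 2 * E2) :
    S1 + S2 ≤ (1 + 2 * (k + 1 / q)) ^ 2 * (E1 + E2) := by
  have b1 : (-1 / D) ^ 2 * N ≤ 4 / (q * Z2) := by
    refine (mul_le_mul_of_nonneg_left N2 (sq_nonneg _)).trans ?_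
    rw [show (-1 / D) ^ 2 * (2 * D) = 2 / D by field_simp, div_le_div_iff₀ d0 (by positivity)]
    linarith
  have b2 : (1 / Z1 * F1 + -1 / Z2 * F2) ^ 2 ≤ (1 + k) * (4 / (q * Z2)) * (E1 + E2) :=
    a5.trans (mul_le_mul_of_nonneg_right
      (by linarith [mul_le_mul_of_nonneg_left (a6.trans b1) k0]) E0)
  have b3 : F1 ^ 2 / Z1 + F2 ^ 2 / Z2 ≤ Z2 * (1 / Z1 * F1 + -1 / Z2 * F2) ^ 2 := by
    rw [show F2 = -F1 by linarith, ← sub_nonneg, show Z2 * (1 / Z1 * F1 + -1 / Z2 * -F1) ^ 2 -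
      (F1 ^ 2 / Z1 + (-F1) ^ 2 / Z2) = F1 ^ 2 * (Z1 + Z2) / Z1 ^ 2 by field_simp; ring]
    positivity
  have b4 := mul_le_mul_of_nonneg_left b2 z2.le
  rw [show Z2 * ((1 + k) * (4 / (q * Z2)) * (E1 + E2)) = (1 + k) * (4 * (1 / q)) * (E1 + E2) by
    field_simp] at b4
  have b5 : 0 ≤ (k * (1 / q) + (1 / q) ^ 2) * (E1 + E2) := by positivity
  linarith

theorem step_abs (hx : x ∉ L) (hy : y ∉ L) (q0 : 0 < q) (k0 : 0 ≤ k) (h1 : Good L k ν1)
    (h2 : Good L k ν2) (s0 : ∀ ω, ν ω = ν1 ω + ν2 ω) (κ1 : ∀ ω, κ ω = ν1 ω * ka q y ω)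
    (κ2 : ∀ ω, κ ω = ν2 ω * ka q x ω) (κ3 : ∀ ω, q / 2 * ν2 ω ≤ κ ω)
    (κ5 : ∀ ω, (1 - 2 * q) ^ 2 * (ν1 ω * ind y ω + ν2 ω * ind x ω) ≤ 2 * κ ω)
    (κ6 : ∀ ω, (1 + q) * ((1 - 2 * q) ^ 2 * (ν1 ω * ind y ω + ν2 ω * ind x ω)) ≤
      ν1 ω * ka q y ω ^ 2 + ν2 ω * ka q x ω ^ 2) :
    Good (insert x (insert y L)) (k + 1 / q) ν := by
  have κ4 : q / 2 * ∑ ω, ν2 ω ≤ ∑ ω, κ ω := by
    rw [mul_sum]; exact sum_le_sum fun ω _ => κ3 ω
  have κ0 : 0 < ∑ ω, κ ω := (mul_pos (by positivity) h2.pos).trans_le κ4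
  have eE : ∀ f d, En ν f d = En ν1 f d + En ν2 f d := fun f d => by
    simp only [En, s0, add_mul, sum_add_distrib]
  have main : ∀ t c, (∀ a ∈ insert x (insert y L), t a = 0) → ∑ ω, ν ω * af t c ω = 0 →
      ∃ B G : ℝ, 0 ≤ B ∧ 0 ≤ G ∧ B + q * G ≤ dg ν t - ∑ ω, ν ω * af t c ω ^ 2 ∧
      ∀ f d, (∑ ω, ν ω * (af t c ω * f ω)) ^ 2 ≤ (dg ν t + G + k * B) * En ν f d := by
    intro t c ht e
    set η := -(∑ ω, ν1 ω * af t c ω) / ∑ ω, κ ω with hη
    have e1 : ∑ ω, ν1 ω * af t c ω + η * ∑ ω, κ ω = 0 := by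
      rw [hη]; field_simp; ring
    simp only [s0, add_mul, sum_add_distrib] at e
    obtain ⟨A, a1, a3, a4⟩ := step_gen hx hy k0 h1 h2 s0 κ1 κ2 t c c η ht e1 (by linarith)
    refine ⟨A, _, a1, ?_, ?_, fun f d => by simpa only [s0, add_mul, sum_add_distrib, eE] using a4 f d⟩
    · have i : ∀ a ω, 0 ≤ ind (α := α) a ω := fun a ω => by unfold ind; split_ifs <;> norm_num
      exact mul_nonneg (sq_nonneg _) (mul_nonneg (sq_nonneg _) (add_nonneg
        (sum_nonneg fun ω _ => mul_nonneg (h1.nn ω) (i _ _))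
        (sum_nonneg fun ω _ => mul_nonneg (h2.nn ω) (i _ _))))
    · rw [a3]
      simp only [← sum_add_distrib, mul_sum]
      rw [← sub_nonneg, show ∀ a b c d e : ℝ, a - b - (a + c - d + e) = d - b - c - e by intros; ring]
      simp only [← sum_sub_distrib]
      refine sum_nonneg fun ω _ => ?_
      have := mul_le_mul_of_nonneg_left (κ6 ω) (sq_nonneg η)
      have e2 := (κ1 ω).symm.trans (κ2 ω)
      rw [s0]
      linear_combination this - (2 * η * af t c ω) * e2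
  have n0 : ∀ ω, 0 ≤ ν ω := fun ω => by rw [s0]; exact add_nonneg (h1.nn ω) (h2.nn ω)
  refine ⟨n0, by simp only [s0, sum_add_distrib]; exact add_pos h1.pos h2.pos, fun t c ht e => ?_,
    fun t c ht e f d => ?_, fun f d e => ?_⟩
  · obtain ⟨B, G, b0, g0, b1, -⟩ := main t c ht e
    linarith [mul_nonneg q0.le g0]
  · obtain ⟨B, G, b0, g0, b1, b2⟩ := main t c ht e
    refine (b2 f d).trans (mul_le_mul_of_nonneg_right ?_ (En_nonneg n0 _ _))
    have := mul_le_mul_of_nonneg_left b1 (show 0 ≤ k + 1 / q by positivity)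
    have e : (k + 1 / q) * (B + q * G) = k * B + G + (B / q + k * q * G) := by field_simp; ring
    have : 0 ≤ B / q + k * q * G := by positivity
    linarith
  have z1 := h1.pos
  have z2 := h2.pos
  obtain ⟨A, -, a3, a4⟩ := step_gen hx hy k0 h1 h2 s0 κ1 κ2 (fun _ => 0) (1 / ∑ ω, ν1 ω)
    (-1 / ∑ ω, ν2 ω) (-1 / ∑ ω, κ ω) (fun _ _ => rfl)
    (by simp only [af, sum_const_zero, add_zero, ← sum_mul]; field_simp; ring)
    (by simp only [af, sum_const_zero, add_zero, ← sum_mul]; field_simp; ring)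
  have a5 := a4 f d
  have z0 : dg ν (fun _ => 0) = 0 := by simp [dg]
  rw [z0, zero_add] at a3 a5
  simp only [af, sum_const_zero, add_zero, mul_left_comm (ν1 _), mul_left_comm (ν2 _), ← mul_sum] at a5
  simp only [s0, add_mul, sum_add_distrib] at e ⊢
  have E0 := En_nonneg n0 f d
  rw [eE] at E0 ⊢
  refine step_poin k0 q0 z1 z2 κ0 κ4 ?_ ?_ E0 a5 e (h1.poin.gen z1 f d) (h2.poin.gen z2 f d)
  · rw [← sum_add_distrib, mul_sum, mul_sum]
    exact sum_le_sum fun ω _ => κ5 ω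
  · rw [a3, sub_le_self_iff]
    exact add_nonneg (sum_nonneg fun ω _ => mul_nonneg (h1.nn ω) (sq_nonneg _))
      (sum_nonneg fun ω _ => mul_nonneg (h2.nn ω) (sq_nonneg _))

theorem good_step (hx : x ∉ L) (hy : y ∉ L) (q0 : 0 < q) (q1 : q ≤ 1 / 2) (k0 : 0 ≤ k)
    (nn : ∀ ω, 0 ≤ μ ω) (h1 : Good L k fun ω => μ ω * hf q x y ω)
    (h2 : Good L k fun ω => μ ω * hf q y x ω) :
    Good (insert x (insert y L)) (k + 1 / q) fun ω => μ ω * pw (4 * q * (1 - q)) x y ω := by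
  have p0 : 0 < 1 - q := by linarith
  have κ2 : ∀ ω, μ ω * hf q x y ω * ka q y ω = μ ω * hf q y x ω * ka q x ω := fun ω => by
    simp only [ka, hf, fd]
    split_ifs <;> ring
  refine step_abs hx hy q0 k0 h1 h2 (fun ω => ?_) (fun _ => rfl) κ2 (fun ω => ?_) (fun ω => ?_)
    fun ω => ?_
  · unfold pw hf fd
    by_cases a : x ∈ ω <;> by_cases b : y ∈ ω <;> simp only [a, b, if_true, if_false, and_self,
      and_false, false_and] <;> ring
  · rw [κ2, mul_comm]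
    exact mul_le_mul_of_nonneg_left (by unfold ka; split_ifs <;> linarith) (h2.nn ω)
  · have i1 : 0 ≤ q * (1 + 2 * q - 4 * q ^ 2) := mul_nonneg q0.le (by nlinarith)
    have i2 : 0 ≤ q ^ 2 * (1 - q) * (3 - 4 * q) := mul_nonneg (by positivity) (by linarith)
    simp only [ka, hf, fd, ind]
    rw [← sub_nonneg]
    split_ifs
    · exact le_of_le_of_eq (mul_nonneg (nn ω) (mul_nonneg (by norm_num : (0 : ℝ) ≤ 4) i2)) (by ring)
    · exact le_of_le_of_eq (mul_nonneg (nn ω) i1) (by ring)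
    · exact le_of_le_of_eq (mul_nonneg (nn ω) i1) (by ring)
    · exact le_of_le_of_eq (mul_nonneg (nn ω) q0.le) (by ring)
  · have i1 : 0 ≤ q ^ 2 * (1 - 2 * q ^ 2) := mul_nonneg (sq_nonneg _) (by nlinarith)
    have i2 : 0 ≤ q ^ 2 * (1 - q) * (1 + q - 4 * q ^ 2) := mul_nonneg (by positivity) (by nlinarith)
    simp only [ka, hf, fd, ind]
    rw [← sub_nonneg]
    split_ifs
    · exact le_of_le_of_eq (mul_nonneg (nn ω) (mul_nonneg (by norm_num : (0 : ℝ) ≤ 4) i2)) (by ring)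
    · exact le_of_le_of_eq (mul_nonneg (nn ω) (mul_nonneg two_pos.le i1)) (by ring)
    · exact le_of_le_of_eq (mul_nonneg (nn ω) (mul_nonneg two_pos.le i1)) (by ring)
    · exact le_of_le_of_eq (mul_nonneg (nn ω) (sq_nonneg q)) (by ring)

end step

/-- The penalised weights. -/
def mu (g : Finset α → ℝ) (x y : ι → α) (e : ℝ) (w : α → ℝ) (s : ℝ) (K : Finset ι) (ω : Finset α) : ℝ :=
  g ω * (∏ a ∈ ω, w a) * s * ∏ i ∈ K, pw e (x i) (y i) ω

omit [Fintype α] in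
theorem mu_fd (g : Finset α → ℝ) (x y : ι → α) (e : ℝ) (w : α → ℝ) (s : ℝ) (K : Finset ι) (a : α)
    (k : ℝ) (ω : Finset α) :
    mu g x y e (fun b => w b * if b = a then k else 1) s K ω = mu g x y e w s K ω * fd a k ω := by
  simp only [mu, prod_mul_distrib, prod_ite_eq', fd]
  ring

theorem good_mu [DecidableEq ι] {g : Finset α → ℝ} (g0 : ∀ ω, 0 ≤ g ω) (g1 : ∃ ω, 0 < g ω)
    (hg : ∀ w : α → ℝ, (∀ a, 0 < w a) → Poin (fun ω => g ω * ∏ a ∈ ω, w a) 1) {x y : ι → α}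
    (hx : x.Injective) (hy : y.Injective) (hxy : ∀ i j, x i ≠ y j) {q : ℝ} (q0 : 0 < q)
    (q1 : q ≤ 1 / 2) (K : Finset ι) : ∀ (w : α → ℝ) (s : ℝ), (∀ a, 0 < w a) → 0 < s →
      Good {a | ∃ i ∈ K, a = x i ∨ a = y i} (K.card / q) (mu g x y (4 * q * (1 - q)) w s K) := by
  induction K using Finset.induction_on with
  | empty =>
    intro w s hw hs
    have p : ∀ ω : Finset α, 0 < ∏ a ∈ ω, w a := fun ω => prod_pos fun a _ => hw a
    have n : ∀ ω, 0 ≤ mu g x y (4 * q * (1 - q)) w s ∅ ω := fun ω => by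
      have := g0 ω
      have := p ω
      simp only [mu, prod_empty]
      positivity
    obtain ⟨ω0, h0⟩ := g1
    have := good_base n (lt_of_lt_of_le (by
      have := p ω0
      simp only [mu, prod_empty]
      positivity) (single_le_sum (fun ω _ => n ω) (mem_univ ω0))) fun f c e => by
        simp only [mu, prod_empty, mul_one, En, mul_right_comm _ s, ← sum_mul] at e ⊢
        rw [← mul_assoc]
        exact mul_le_mul_of_nonneg_right (hg w hw f c ((mul_eq_zero.1 e).resolve_right hs.ne')) hs.le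
    simpa using this
  | insert i K hi ih =>
    intro w s hw hs
    have p0 : 0 < 1 - q := by linarith
    have h : ∀ a b, Good {a | ∃ i ∈ K, a = x i ∨ a = y i} (K.card / q)
        fun ω => mu g x y (4 * q * (1 - q)) w s K ω * hf q a b ω := fun a b => by
      have := ih (fun c => (w c * if c = a then 2 * (1 - q) else 1) * if c = b then 2 * q else 1) (s / 2)
        (fun c => by have := hw c; positivity) (by positivity)
      refine (congrArg _ (funext fun ω => ?_)).mp this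
      rw [mu_fd, mu_fd]
      simp only [mu, hf]
      ring
    have := good_step (x := x i) (y := y i) (by
      rintro ⟨j, hj, e | e⟩
      · exact hi (hx e ▸ hj)
      · exact hxy _ _ e) (by
      rintro ⟨j, hj, e | e⟩
      · exact hxy _ _ e.symm
      · exact hi (hy e ▸ hj)) q0 q1 (by positivity) (ih w s hw hs).nn (h _ _) (h _ _)
    rw [card_insert_of_notMem hi, Nat.cast_succ, add_div]
    refine (congrArg₂ (Good · _ ·) (by ext a; simp [or_assoc]) (funext fun ω => ?_)).mp this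
    simp only [mu, prod_insert hi]
    ring

theorem Good.pair {L : Set α} {k : ℝ} {ν : Finset α → ℝ} (h : Good L k ν) {x y : α} (hx : x ∉ L)
    (hy : y ∉ L) (hxy : x ≠ y) :
    (∑ ω, ν ω * if x ∈ ω ∧ y ∈ ω then 1 else 0) * ∑ ω, ν ω ≤
      2 * (∑ ω, ν ω * if x ∈ ω then 1 else 0) * ∑ ω, ν ω * if y ∈ ω then 1 else 0 := by
  have z := h.pos
  set X := ∑ ω, ν ω * if x ∈ ω then 1 else 0 with hX
  set Y := ∑ ω, ν ω * if y ∈ ω then 1 else 0 with hY
  set D := ∑ ω, ν ω * if x ∈ ω ∧ y ∈ ω then 1 else 0 with hD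
  set Z := ∑ ω, ν ω with hZ
  have a1 : D ≤ X := sum_le_sum fun ω _ =>
    mul_le_mul_of_nonneg_left (by split_ifs <;> simp_all) (h.nn ω)
  have a2 : D ≤ Y := sum_le_sum fun ω _ =>
    mul_le_mul_of_nonneg_left (by split_ifs <;> simp_all) (h.nn ω)
  have a3 : 0 ≤ D := sum_nonneg fun ω _ => mul_nonneg (h.nn ω) (by split_ifs <;> norm_num)
  rcases a3.eq_or_lt with e | e
  · rw [← e, zero_mul]
    exact mul_nonneg (by linarith) (by linarith)
  have r : ∀ ω, af (fun a => ((0 : ℝ) + if a = x then Y else 0) + if a = y then X else 0)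
      (-(2 * X * Y / Z)) ω = -(2 * X * Y / Z) + Y * (if x ∈ ω then 1 else 0) +
        X * if y ∈ ω then 1 else 0 := fun ω => by
    simp [af, sum_add_distrib, add_assoc]
  have := h.var (fun a => ((0 : ℝ) + if a = x then Y else 0) + if a = y then X else 0)
    (-(2 * X * Y / Z)) (fun a ha => by
      rw [if_neg (by rintro rfl; exact hx ha), if_neg (by rintro rfl; exact hy ha)]
      simp) (by
      simp only [r, mul_add, sum_add_distrib, ← sum_mul, mul_left_comm (ν _), ← mul_sum, ← hX, ← hY, ← hZ]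
      field_simp
      ring)
  rw [dg_add _ _ (by simp [hxy.symm]), dg_add (t := fun _ => 0) _ _ rfl, ← hX, ← hY,
    sum_congr rfl (g := fun ω => ν ω * (2 * X * Y / Z) ^ 2 +
      (Y ^ 2 - 2 * (2 * X * Y / Z) * Y) * (ν ω * if x ∈ ω then 1 else 0) +
      (X ^ 2 - 2 * (2 * X * Y / Z) * X) * (ν ω * if y ∈ ω then 1 else 0) +
      2 * X * Y * (ν ω * if x ∈ ω ∧ y ∈ ω then 1 else 0)) fun ω _ => by
        rw [r]
        by_cases a : x ∈ ω <;> by_cases b : y ∈ ω <;> simp only [a, b, if_true, if_false, and_self,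
          and_false, false_and] <;> ring] at this
  simp only [sum_add_distrib, ← sum_mul, ← mul_sum, ← hX, ← hY, ← hZ, ← hD, dg, ne_eq,
    OfNat.ofNat_ne_zero, not_false_eq_true, zero_pow, sum_const_zero, mul_zero] at this
  have p : 0 < 2 * X * Y := mul_pos (by linarith) (by linarith)
  refine le_of_mul_le_mul_left ?_ p
  have := mul_le_mul_of_nonneg_right this z.le
  have e1 : 2 * X * Y / Z * Z = 2 * X * Y := by field_simp
  generalize 2 * X * Y / Z = m at *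
  linear_combination this - (m * Z - 2 * X * Y) * e1

end Vale.Agent.P317
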