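import Vale.Agent.P335.Spec

/-! Links of weights on finite sets, the trickle down step and the Poincare step. -/

namespace Vale.Agent.P317

open Finset

variable {α : Type} [Fintype α] [DecidableEq α]

/-- The link of a weight at an element. -/
def lk (ν : Finset α → ℝ) (a : α) (S : Finset α) : ℝ := if a ∈ S then 0 else ν (insert a S)

theorem sum_lk (ν : Finset α → ℝ) (a : α) (G : Finset α → ℝ) :
    ∑ S, lk ν a S * G (insert a S) = ∑ ω, if a ∈ ω then ν ω * G ω else 0 := by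
  have : ∀ S, lk ν a S * G (insert a S) =
      if ¬ a ∈ S then ν (insert a S) * G (insert a S) else 0 := fun S => by
    unfold lk; split_ifs <;> simp
  rw [sum_congr rfl fun S _ => this S, ← sum_filter, ← sum_filter]
  refine sum_nbij' (insert a) (·.erase a) (by simp) (by simp) ?_ ?_ fun _ _ => rfl
  · intro S h
    exact erase_insert (by simpa using h)
  · intro S h
    exact insert_erase (by simpa using h)

theorem sum_lk' (ν : Finset α → ℝ) (G : α → Finset α → ℝ) :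
    ∑ a, ∑ S, lk ν a S * G a (insert a S) = ∑ ω, ν ω * ∑ a ∈ ω, G a ω := by
  simp only [sum_lk]
  rw [sum_comm]
  refine sum_congr rfl fun ω _ => ?_
  rw [← sum_filter, mul_sum]
  simp

theorem lk_congr (ν : Finset α → ℝ) (a : α) {G G' : Finset α → ℝ} (h : ∀ S, a ∉ S → G S = G' S) :
    ∑ S, lk ν a S * G S = ∑ S, lk ν a S * G' S :=
  sum_congr rfl fun S _ => by
    by_cases e : a ∈ S
    · simp [lk, e]
    · rw [h S e]

/-- Positive exactly on the `r`-subsets of `E`. -/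
structure Pos (E : Finset α) (r : ℕ) (ν : Finset α → ℝ) : Prop where
  pos : ∀ ω, ω ⊆ E → ω.card = r → 0 < ν ω
  zero : ∀ ω, ¬ (ω ⊆ E ∧ ω.card = r) → ν ω = 0

variable {E : Finset α} {r : ℕ} {ν : Finset α → ℝ}

omit [Fintype α] [DecidableEq α] in
theorem Pos.nonneg (h : Pos E r ν) (ω : Finset α) : 0 ≤ ν ω := by
  by_cases e : ω ⊆ E ∧ ω.card = r
  · exact (h.pos ω e.1 e.2).le
  · rw [h.zero ω e]

omit [DecidableEq α] in
theorem Pos.congr (h : Pos E r ν) {G G' : Finset α → ℝ} (e : ∀ ω, ω ⊆ E → ω.card = r → G ω = G' ω) :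
    ∑ ω, ν ω * G ω = ∑ ω, ν ω * G' ω :=
  sum_congr rfl fun ω _ => by
    by_cases c : ω ⊆ E ∧ ω.card = r
    · rw [e ω c.1 c.2]
    · simp [h.zero ω c]

omit [Fintype α] in
theorem Pos.lk (h : Pos E (r + 1) ν) {a : α} (ha : a ∈ E) : Pos (E.erase a) r (lk ν a) where
  pos S h1 h2 := by
    have : a ∉ S := fun c => by simpa using h1 c
    rw [P317.lk, if_neg this]
    exact h.pos _ (insert_subset ha (h1.trans (erase_subset _ _))) (by rw [card_insert_of_notMem this, h2])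
  zero S h1 := by
    unfold P317.lk
    split_ifs with c
    · rfl
    · refine h.zero _ fun e => h1 ⟨subset_erase.2 ⟨(subset_insert _ _).trans e.1, c⟩, ?_⟩
      have := e.2
      rw [card_insert_of_notMem c] at this
      omega

omit [Fintype α] in
theorem Pos.lk_zero (h : Pos E r ν) {a : α} (ha : a ∉ E) (S : Finset α) : P317.lk ν a S = 0 := by
  unfold P317.lk
  split_ifs with c
  · rfl
  · exact h.zero _ fun e => ha (e.1 (mem_insert_self _ _))

omit [DecidableEq α] in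
theorem Pos.sum_pos (h : Pos E r ν) (hr : r ≤ E.card) : 0 < ∑ ω, ν ω := by
  obtain ⟨ω, h1, h2⟩ := exists_subset_card_eq hr
  exact (h.pos ω h1 h2).trans_le (single_le_sum (fun ω _ => h.nonneg ω) (mem_univ ω))

omit [Fintype α] [DecidableEq α] in
theorem Pos.eq_zero (h : Pos E r ν) (hr : E.card < r) (ω : Finset α) : ν ω = 0 :=
  h.zero ω fun e => by have := card_le_card e.1; omega

/-- The centered quadratic inequality. -/
def B1 (ν : Finset α → ℝ) : Prop := ∀ t : α → ℝ, ∑ ω, ν ω * ∑ a ∈ ω, t a = 0 →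
  ∑ ω, ν ω * ((∑ a ∈ ω, t a) ^ 2 - ∑ a ∈ ω, t a ^ 2) ≤ 0

omit [DecidableEq α] in
theorem B1.strong (hp : Pos E r ν) (h : B1 ν) (hr : 0 < r) (t : α → ℝ) :
    r * (∑ ω, ν ω) * ∑ ω, ν ω * ((∑ a ∈ ω, t a) ^ 2 - ∑ a ∈ ω, t a ^ 2) ≤
      (r - 1) * (∑ ω, ν ω * ∑ a ∈ ω, t a) ^ 2 := by
  rcases lt_or_ge E.card r with c | c
  · simp [hp.eq_zero c]
  have hZ := hp.sum_pos c
  have r0 : (0 : ℝ) < r := by exact_mod_cast hr
  set Z := ∑ ω, ν ω with eZ
  set L := ∑ ω, ν ω * ∑ a ∈ ω, t a with eL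
  set κ := L / (r * Z) with eκ
  have hκ : L = κ * (r * Z) := by rw [eκ]; field_simp
  have := h (fun a => t a - κ) (by
    rw [hp.congr (G' := fun ω => ∑ a ∈ ω, t a - r * κ) fun ω _ e => by simp [e]]
    simp only [mul_sub, sum_sub_distrib, ← sum_mul, ← eL, ← eZ]
    linarith)
  rw [hp.congr (G' := fun ω => ((∑ a ∈ ω, t a) ^ 2 - ∑ a ∈ ω, t a ^ 2) -
    (2 * (r - 1) * κ) * ∑ a ∈ ω, t a + r * (r - 1) * κ ^ 2) fun ω _ e => by
      simp only [sub_sq, sum_add_distrib, sum_sub_distrib, sum_const, e, nsmul_eq_mul, ← sum_mul,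
        ← mul_sum]
      ring] at this
  simp only [mul_add, mul_sub (ν _) (_ - _), sum_add_distrib, sum_sub_distrib, ← sum_mul, ← eZ,
    mul_left_comm (ν _) (2 * (r - 1) * κ), ← mul_sum, ← eL] at this
  have := mul_le_mul_of_nonneg_left this (mul_pos r0 hZ).le
  rw [hκ] at this ⊢
  nlinarith

/-- The off-diagonal operator. -/
def Hf (ν : Finset α → ℝ) (t : α → ℝ) (a : α) : ℝ := ∑ S, lk ν a S * ∑ b ∈ S, t b

theorem Hf_sym (ν : Finset α → ℝ) (s t : α → ℝ) : ∑ a, s a * Hf ν t a =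
    ∑ ω, ν ω * ((∑ a ∈ ω, s a) * (∑ a ∈ ω, t a) - ∑ a ∈ ω, s a * t a) := by
  have := sum_lk' ν fun a ω => s a * (∑ b ∈ ω, t b - t a)
  simp only [mul_sub (s _), sum_sub_distrib, ← sum_mul] at this
  rw [← this]
  refine sum_congr rfl fun a _ => ?_
  rw [Hf, mul_sum, ← lk_congr ν a (G := fun S => s a * ∑ b ∈ S, t b) fun S h => by
    rw [sum_insert h]; ring]
  exact sum_congr rfl fun _ _ => by ring

theorem W_sum (ν : Finset α → ℝ) (s : α → ℝ) :
    ∑ a, s a * ∑ S, lk ν a S = ∑ ω, ν ω * ∑ a ∈ ω, s a := by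
  rw [← sum_lk' ν fun a _ => s a]
  simp only [mul_sum, mul_comm]

theorem Pos.sum_E (h : Pos E r ν) {G : α → ℝ} (e : ∀ a, (∀ S, P317.lk ν a S = 0) → G a = 0) :
    ∑ a ∈ E, G a = ∑ a, G a :=
  sum_subset (subset_univ _) fun a _ ha => e a (h.lk_zero ha)

theorem sq_sum_eq (ω : Finset α) (t : α → ℝ) : ∑ a ∈ ω, ∑ b ∈ ω, (t a - t b) ^ 2 =
    2 * (ω.card * ∑ a ∈ ω, t a ^ 2 - (∑ a ∈ ω, t a) ^ 2) := by
  simp only [sub_sq, sum_add_distrib, sum_sub_distrib, sum_const, nsmul_eq_mul, ← mul_sum, ← sum_mul]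
  ring

theorem trickle (hp : Pos E (r + 3) ν) (h : ∀ a ∈ E, B1 (lk ν a)) : B1 ν := by
  rcases lt_or_ge E.card (r + 3) with c | c
  · intro t _
    simp [hp.eq_zero c]
  set W : α → ℝ := fun a => ∑ S, lk ν a S with hW
  have Wp : ∀ a ∈ E, 0 < W a := fun a ha => (hp.lk ha).sum_pos (by rw [card_erase_of_mem ha]; omega)
  have s0 : ∀ s t : α → ℝ, ∑ a ∈ E, s a * Hf ν t a = ∑ a, s a * Hf ν t a := fun s t =>
    hp.sum_E fun a e => by simp [Hf, e]
  have s1 : ∀ s : α → ℝ, ∑ a ∈ E, s a * W a = ∑ ω, ν ω * ∑ a ∈ ω, s a := fun s => by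
    rw [← W_sum]
    exact hp.sum_E fun a e => by simp [hW, e]
  have k1 : ∀ t : α → ℝ, (r + 2) * ∑ a ∈ E, t a * Hf ν t a ≤ ∑ a ∈ E, Hf ν t a ^ 2 / W a := by
    intro t
    have a1 : ∀ a ∈ E, (r + 2) * ∑ S, lk ν a S * ((∑ b ∈ S, t b) ^ 2 - ∑ b ∈ S, t b ^ 2) ≤
        (r + 1) * (Hf ν t a ^ 2 / W a) := fun a ha => by
      have := (h a ha).strong (hp.lk ha) (by omega) t
      rw [← mul_div_assoc, le_div_iff₀ (Wp a ha)]
      push_cast at this
      unfold Hf
      linarith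
    have a2 := sum_le_sum a1
    rw [← mul_sum, ← mul_sum, hp.sum_E fun a e => by simp [e],
      sum_congr rfl fun a _ => lk_congr ν a (G' := fun S =>
        ((∑ b ∈ insert a S, t b - t a) ^ 2 - (∑ b ∈ insert a S, t b ^ 2 - t a ^ 2))) fun S e => by
          simp [sum_insert e],
      sum_lk' ν fun a ω => (∑ b ∈ ω, t b - t a) ^ 2 - (∑ b ∈ ω, t b ^ 2 - t a ^ 2),
      hp.congr (G' := fun ω => (r + 1) * ((∑ a ∈ ω, t a) * (∑ a ∈ ω, t a) - ∑ a ∈ ω, t a * t a))
        fun ω _ e => by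
          simp only [sub_sq, sum_add_distrib, sum_sub_distrib, sum_const, e, nsmul_eq_mul,
            ← mul_sum, ← sq]
          push_cast
          ring] at a2
    simp only [mul_left_comm (ν _), ← mul_sum] at a2
    rw [← Hf_sym, ← s0, mul_left_comm] at a2
    exact le_of_mul_le_mul_left a2 (by positivity)
  let T : (α → ℝ) →ₗ[ℝ] (α → ℝ) :=
    { toFun := fun f a => Hf ν (fun b => f b / √(W b)) a / √(W a)
      map_add' := fun f g => by
        funext a
        simp [Hf, add_div, sum_add_distrib, mul_add]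
      map_smul' := fun x f => by
        funext a
        simp only [Hf, Pi.smul_apply, smul_eq_mul, mul_div_assoc, ← mul_sum, RingHom.id_apply,
          mul_left_comm _ x] }
  have hT : ∀ f g, P335.ip E f (T g) =
      ∑ a ∈ E, f a / √(W a) * Hf ν (fun b => g b / √(W b)) a := fun f g =>
    sum_congr rfl fun a _ => by simp only [T, LinearMap.coe_mk, AddHom.coe_mk]; ring
  have hs : ∀ f g, P335.ip E (T f) g = P335.ip E f (T g) := fun f g => by
    rw [P335.ip_comm, hT, hT, s0, s0, Hf_sym, Hf_sym]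
    simp only [mul_comm]
  obtain ⟨n, b, μ, e1, -, e3⟩ := P335.spectral E T hs
  intro t ht
  have sq0 : ∀ a ∈ E, 0 < √(W a) := fun a ha => Real.sqrt_pos.2 (Wp a ha)
  have sq1 : ∀ a ∈ E, √(W a) * √(W a) = W a := fun a ha => Real.mul_self_sqrt (Wp a ha).le
  have e4 : P335.ip E (fun a => √(W a) * t a) (T fun a => √(W a) * t a) =
      ∑ ω, ν ω * ((∑ a ∈ ω, t a) ^ 2 - ∑ a ∈ ω, t a ^ 2) := by
    rw [hT, s0, Hf_sym]
    refine hp.congr fun ω e _ => ?_
    have : ∀ a ∈ ω, √(W a) * t a / √(W a) = t a := fun a ha => by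
      have := sq0 a (e ha)
      field_simp
    rw [sum_congr rfl this, sum_congr rfl (f := fun a => √(W a) * t a / √(W a) * (√(W a) * t a / √(W a)))
      (g := fun a => t a ^ 2) fun a ha => by rw [this a ha, sq], sq]
  rw [← e4, e3]
  refine sum_nonpos fun i _ => ?_
  rw [← hs, P335.ip_congr (f' := fun x => μ i * b i x) (e1 i) fun _ _ => rfl]
  have e5 : ∀ f, P335.ip E (fun x => μ i * b i x) f = μ i * P335.ip E (b i) f := fun f => by
    simp [P335.ip, mul_sum, mul_assoc]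
  rw [e5, mul_left_comm]
  rcases le_or_gt (μ i) 0 with m0 | m0
  · exact mul_nonpos_of_nonpos_of_nonneg m0 (mul_self_nonneg _)
  set u : α → ℝ := fun a => b i a / √(W a) with hu
  have u1 : ∀ a ∈ E, Hf ν u a = μ i * (u a * W a) := fun a ha => by
    have h1 := e1 i a ha
    have h2 := sq0 a ha
    simp only [T, LinearMap.coe_mk, AddHom.coe_mk] at h1
    rw [div_eq_iff h2.ne'] at h1
    rw [h1, ← sq1 a ha]
    simp only [hu]
    field_simp
    rw [sq, sq1 a ha]
  have u2 : ∑ a ∈ E, u a * Hf ν u a = μ i * ∑ a ∈ E, u a ^ 2 * W a := by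
    rw [mul_sum]
    exact sum_congr rfl fun a ha => by rw [u1 a ha]; ring
  have u3 := k1 u
  rw [u2, sum_congr rfl (f := fun a => Hf ν u a ^ 2 / W a)
    (g := fun a => μ i * (μ i * (u a ^ 2 * W a))) fun a ha => by
    have := Wp a ha
    rw [u1 a ha]
    field_simp, ← mul_sum, ← mul_sum, mul_left_comm] at u3
  have u4 := le_of_mul_le_mul_left u3 m0
  rw [← u2, s0, Hf_sym, s1] at u4
  have u5 : ∑ ω, ν ω * ∑ a ∈ ω, ∑ a' ∈ ω, (u a - u a') ^ 2 ≤ 0 := by
    rw [hp.congr (G' := fun ω => 2 * (r + 2) * ∑ a ∈ ω, u a ^ 2 - 2 *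
      ((∑ a ∈ ω, u a) * (∑ a ∈ ω, u a) - ∑ a ∈ ω, u a * u a)) fun ω _ e => by
        rw [sq_sum_eq, e]
        simp only [← sq]
        push_cast
        ring]
    simp only [mul_sub (ν _) (_ * _) (2 * _), sum_sub_distrib, mul_left_comm (ν _), ← mul_sum]
    linarith
  have nn : ∀ ω : Finset α, 0 ≤ ∑ a ∈ ω, ∑ a' ∈ ω, (u a - u a') ^ 2 := fun ω => by positivity
  have u6 : ∀ a ∈ E, ∀ a' ∈ E, u a = u a' := fun a ha a' ha' => by
    obtain ⟨ω, h1, h2, h3⟩ := exists_subsuperset_card_eq (s := {a, a'}) (t := E) (n := r + 3)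
      (by simp [insert_subset_iff, ha, ha']) (card_le_two.trans (by omega)) c
    have h4 := (single_le_sum (f := fun ω => ν ω * ∑ a ∈ ω, ∑ a' ∈ ω, (u a - u a') ^ 2)
      (fun ω _ => mul_nonneg (hp.nonneg ω) (nn ω)) (mem_univ ω)).trans u5
    have h5 := (single_le_sum (f := fun a' => (u a - u a') ^ 2) (fun _ _ => sq_nonneg _)
      (h1 (by simp : a' ∈ {a, a'}))).trans (single_le_sum
        (f := fun a => ∑ a' ∈ ω, (u a - u a') ^ 2) (fun _ _ => by positivity)
        (h1 (by simp : a ∈ {a, a'})))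
    have h6 := nonpos_of_mul_nonpos_right h4 (hp.pos ω h2 h3)
    exact sub_eq_zero.1 (pow_eq_zero_iff two_ne_zero |>.1 (le_antisymm (h5.trans h6) (sq_nonneg _)))
  obtain ⟨a0, ha0⟩ : E.Nonempty := card_pos.1 (by omega)
  have : P335.ip E (b i) (fun a => √(W a) * t a) = 0 := by
    rw [← s1] at ht
    rw [← mul_zero (u a0), ← ht, mul_sum]
    refine sum_congr rfl fun a ha => ?_
    have := sq0 a ha
    rw [← u6 a ha a0 ha0, ← sq1 a ha]
    simp only [hu]
    field_simp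
  simp [this]

/-- The down-up energy with given centers. -/
def En (ν f c : Finset α → ℝ) : ℝ := ∑ ω, ν ω * ∑ a ∈ ω, (f ω - c (ω.erase a)) ^ 2

/-- The Poincare inequality. -/
def Poin (ν : Finset α → ℝ) (C : ℝ) : Prop :=
  ∀ f c, ∑ ω, ν ω * f ω = 0 → ∑ ω, ν ω * f ω ^ 2 ≤ C * En ν f c

theorem En_nonneg (h : ∀ ω, 0 ≤ ν ω) (f c : Finset α → ℝ) : 0 ≤ En ν f c :=
  sum_nonneg fun ω _ => mul_nonneg (h ω) (by positivity)

theorem Poin.gen {C : ℝ} (h : Poin ν C) (hZ : 0 < ∑ ω, ν ω) (f c : Finset α → ℝ) :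
    ∑ ω, ν ω * f ω ^ 2 - (∑ ω, ν ω * f ω) ^ 2 / ∑ ω, ν ω ≤ C * En ν f c := by
  set m := (∑ ω, ν ω * f ω) / ∑ ω, ν ω with hm
  have e : ∑ ω, ν ω * f ω = m * ∑ ω, ν ω := by rw [hm]; field_simp
  have := h (fun ω => f ω - m) (fun S => c S - m) (by
    simp only [mul_sub, sum_sub_distrib, ← sum_mul]
    linarith)
  simp only [En, sub_sub_sub_cancel_right] at this
  refine le_trans (le_of_eq ?_) this
  simp only [sub_sq, mul_add, mul_sub, sum_add_distrib, sum_sub_distrib, ← sum_mul, ← mul_assoc,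
    mul_right_comm _ (2 : ℝ)]
  rw [e]
  field_simp
  ring

omit [DecidableEq α] in
theorem cs (h : ∀ ω, 0 ≤ ν ω) (f g : Finset α → ℝ) :
    (∑ ω, ν ω * (f ω * g ω)) ^ 2 ≤ (∑ ω, ν ω * f ω ^ 2) * ∑ ω, ν ω * g ω ^ 2 :=
  sum_sq_le_sum_mul_sum_of_sq_le_mul _ (fun ω _ => mul_nonneg (h ω) (sq_nonneg _))
    (fun ω _ => mul_nonneg (h ω) (sq_nonneg _)) fun ω _ => le_of_eq (by ring)

theorem poin_step (hp : Pos E (r + 2) ν) (hB : B1 ν) (h : ∀ a ∈ E, Poin (lk ν a) 1) : Poin ν 1 := by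
  intro f c hf
  rcases lt_or_ge E.card (r + 2) with c0 | c0
  · simp [En, hp.eq_zero c0]
  set W : α → ℝ := fun a => ∑ S, lk ν a S with hW
  set F : α → ℝ := fun a => ∑ S, lk ν a S * f (insert a S) with hF
  have Wp : ∀ a ∈ E, 0 < W a := fun a ha => (hp.lk ha).sum_pos (by rw [card_erase_of_mem ha]; omega)
  have a1 := sum_le_sum fun a ha =>
    (h a ha).gen (Wp a ha) (fun S => f (insert a S)) fun S => c (insert a S)
  simp only [one_mul, sum_sub_distrib] at a1
  rw [hp.sum_E fun a e => by simp [e], sum_lk' ν fun _ ω => f ω ^ 2,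
    hp.sum_E (G := fun a => En _ _ _) fun a e => by simp [En, e]] at a1
  have a2 : ∑ a, En (lk ν a) (fun S => f (insert a S)) (fun S => c (insert a S)) =
      (r + 1) * En ν f c := by
    unfold En
    rw [sum_congr rfl fun a _ => lk_congr ν a (G' := fun S => ∑ b ∈ insert a S,
      (f (insert a S) - c ((insert a S).erase b)) ^ 2 -
        (f (insert a S) - c ((insert a S).erase a)) ^ 2) fun S e => by
          rw [sum_insert e, add_sub_cancel_left]
          exact sum_congr rfl fun b hb => by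
            rw [erase_insert_of_ne (by rintro rfl; exact e hb)],
      sum_lk' ν fun a ω => ∑ b ∈ ω, (f ω - c (ω.erase b)) ^ 2 - (f ω - c (ω.erase a)) ^ 2, mul_sum,
      hp.congr (G' := fun ω => (r + 1) * ∑ b ∈ ω, (f ω - c (ω.erase b)) ^ 2) fun ω _ e => by
        simp only [sum_sub_distrib, sum_const, e, nsmul_eq_mul]
        push_cast
        ring]
    exact sum_congr rfl fun _ _ => by ring
  rw [a2, hp.congr (G' := fun ω => (r + 2) * f ω ^ 2) fun ω _ e => by simp [e]] at a1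
  set t : α → ℝ := fun a => F a / W a with ht
  have s1 : ∀ s : α → ℝ, ∑ a ∈ E, s a * W a = ∑ ω, ν ω * ∑ a ∈ ω, s a := fun s => by
    rw [← W_sum]
    exact hp.sum_E fun a e => by simp [hW, e]
  have s2 : ∀ s : α → ℝ, ∑ a ∈ E, s a * F a = ∑ ω, ν ω * ((∑ a ∈ ω, s a) * f ω) := fun s => by
    rw [hp.sum_E fun a e => by simp [hF, e]]
    simp only [sum_mul, ← sum_lk' ν fun a ω => s a * f ω]
    simp only [hF, mul_sum, mul_left_comm]
  have b1 := hB t (by
    rw [← s1, sum_congr rfl (g := fun a => 1 * F a) fun a ha => by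
      have := Wp a ha
      simp only [ht]
      field_simp, s2, hp.congr (G' := fun ω => (r + 2) * f ω) fun ω _ e => by simp [e]]
    simp only [mul_left_comm (ν _), ← mul_sum, hf, mul_zero])
  have d1 : ∑ a ∈ E, F a ^ 2 / W a = ∑ a ∈ E, t a * F a := sum_congr rfl fun a _ => by
    simp only [ht]; ring
  have d2 : ∑ a ∈ E, F a ^ 2 / W a = ∑ a ∈ E, t a ^ 2 * W a := sum_congr rfl fun a ha => by
    have := Wp a ha
    simp only [ht]
    field_simp
  have d3 := cs hp.nonneg (fun ω => ∑ a ∈ ω, t a) f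
  simp only [mul_sub, sum_sub_distrib] at b1
  rw [← s1, ← d2] at b1
  rw [← s2, ← d1] at d3
  have d4 : 0 ≤ ∑ ω, ν ω * f ω ^ 2 := sum_nonneg fun ω _ => mul_nonneg (hp.nonneg ω) (sq_nonneg _)
  have d5 : ∑ a ∈ E, F a ^ 2 / W a ≤ ∑ ω, ν ω * f ω ^ 2 := by
    by_contra c1
    have := mul_le_mul_of_nonneg_right (sub_nonpos.1 b1) d4
    nlinarith
  simp only [mul_left_comm (ν _), ← mul_sum] at a1
  refine le_of_mul_le_mul_left ?_ (show (0 : ℝ) < r + 1 by positivity)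
  change _ - ∑ a ∈ E, F a ^ 2 / W a ≤ _ at a1
  linarith

theorem poin_zero (hp : Pos E 0 ν) : Poin ν 1 := fun f c hf => by
  have : ∀ g : Finset α → ℝ, ∑ ω, ν ω * g ω = ν ∅ * g ∅ := fun g =>
    sum_eq_single _ (fun ω _ e => by rw [hp.zero ω fun c => e (card_eq_zero.1 c.2), zero_mul]) (by simp)
  rw [this] at hf
  rw [this, sq, ← mul_assoc, hf, zero_mul, one_mul]
  exact En_nonneg hp.nonneg _ _

theorem poin_one (hp : Pos E 1 ν) : Poin ν 1 := fun f c hf => by
  rw [En, one_mul, hp.congr (G := fun ω => ∑ a ∈ ω, (f ω - c (ω.erase a)) ^ 2)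
    (G' := fun ω => f ω ^ 2 - 2 * c ∅ * f ω + c ∅ ^ 2) fun ω _ e => by
      obtain ⟨a, rfl⟩ := card_eq_one.1 e
      simp only [sum_singleton, erase_singleton]
      ring]
  simp only [mul_add, mul_sub, sum_add_distrib, sum_sub_distrib, mul_left_comm (ν _), ← mul_sum, hf]
  have : 0 ≤ ∑ ω, ν ω * c ∅ ^ 2 := sum_nonneg fun ω _ => mul_nonneg (hp.nonneg ω) (sq_nonneg _)
  linarith

end Vale.Agent.P317
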